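import Mathlib

namespace Vale.Agent.P147B
open MeasureTheory
open scoped ENNReal

/-- Sites of the lattice. -/
abbrev V (d : ℕ) := Fin d → ℤ

/-- Unit steps: a coordinate and a sign. -/
abbrev St (d : ℕ) := Fin d × Bool

/-- The vector of a unit step. -/
def vec {d : ℕ} (e : St d) : V d := Pi.single e.1 (if e.2 then 1 else -1)

/-- Position at time `n` of the walk started at the origin with step sequence `s`. -/
def pos {d : ℕ} (s : ℕ → St d) (n : ℕ) : V d := ∑ i ∈ Finset.range n, vec (s i)

/-- `P` is the annealed law of the step sequence of the walk from the origin in the iid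
environment with row law `μ`: the quenched probability of the first `n` steps is the product of
the transition probabilities, averaged over the product measure. -/
def IsAnnealed {d : ℕ} (μ : Measure (St d → ℝ)) (P : Measure (ℕ → St d)) : Prop :=
  IsProbabilityMeasure P ∧ ∀ (s : ℕ → St d) (n : ℕ),
    P {t | ∀ i < n, t i = s i} =
      ∫⁻ ω, ∏ i ∈ Finset.range n, ENNReal.ofReal (ω (pos s i) (s i))
        ∂(Measure.infinitePi fun _ : V d => μ)

end Vale.Agent.P147B
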