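import Mathlib
import Vale.Agent.P147B.Stmt

namespace Vale.Agent.P147B
open MeasureTheory
open scoped ENNReal

section walk
variable {d : ℕ}

def cyl (s : ℕ → St d) (n : ℕ) : Set (ℕ → St d) := {t | ∀ i < n, t i = s i}

def sh {α : Type} (n : ℕ) (s : ℕ → α) : ℕ → α := fun i => s (n + i)

/-- The only properties of the annealed law that are used. -/
structure Ann (P : Measure (ℕ → St d)) : Prop where
  prob : IsProbabilityMeasure P
  ne : ∀ s n, P (cyl s n) ≠ 0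
  mul : ∀ s n m, (∀ i < n, ∀ j < m, pos s i ≠ pos s (n + j)) →
    P (cyl s (n + m)) = P (cyl s n) * P (cyl (sh n s) m)
  dom : ∀ s n m, P (cyl s (n + m)) ≤ P (cyl (sh n s) m)

def D (h : V d →+ ℤ) : Set (ℕ → St d) := {s | ∀ m, 0 ≤ h (pos s m)}

def Lin (h : V d →+ ℤ) : Set (ℕ → St d) := {s | ∃ C : ℕ, ∀ m : ℕ, (m : ℤ) ≤ h (pos s m) + C}

def DL (h : V d →+ ℤ) : Set (ℕ → St d) := D h ∩ Lin h

def Rec (h : V d →+ ℤ) (s : ℕ → St d) (n : ℕ) : Prop := ∀ m < n, h (pos s m) < h (pos s n)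

/-- paths in `DL` with no cut time at level at most `j` -/
def NoCut (h : V d →+ ℤ) (j : ℕ) : Set (ℕ → St d) :=
  {s | s ∈ DL h ∧ ∀ n, 0 < n → Rec h s n → sh n s ∈ D h → (j : ℤ) < h (pos s n)}

/-- expected number of records at level `a` -/
noncomputable def rr (P : Measure (ℕ → St d)) (h : V d →+ ℤ) (a : ℕ) : ℝ≥0∞ :=
  ∑' n, P {s | 0 < n ∧ Rec h s n ∧ h (pos s n) = a}

variable [NeZero d]

def ext (γ : List (St d)) : ℕ → St d := fun i => γ.getD i default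

def cylL (γ : List (St d)) : Set (ℕ → St d) := cyl (ext γ) γ.length

def disp (γ : List (St d)) : V d := pos (ext γ) γ.length

def IsSlab (h : V d →+ ℤ) (γ : List (St d)) : Prop :=
  0 < γ.length ∧
  (∀ m < γ.length, 0 ≤ h (pos (ext γ) m) ∧ h (pos (ext γ) m) < h (disp γ)) ∧
  ∀ r, 0 < r → r < γ.length → Rec h (ext γ) r →
    ∃ m, r < m ∧ m < γ.length ∧ h (pos (ext γ) m) < h (pos (ext γ) r)

def Sl (h : V d →+ ℤ) : Type := {γ : List (St d) // IsSlab h γ}

instance (h : V d →+ ℤ) : MeasurableSpace (Sl h) := ⊤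
instance (h : V d →+ ℤ) : DiscreteMeasurableSpace (Sl h) := ⟨fun _ => trivial⟩
instance (h : V d →+ ℤ) : Countable (Sl h) := inferInstanceAs (Countable {γ : List (St d) // IsSlab h γ})

def Sl.l {h : V d →+ ℤ} (γ : Sl h) : List (St d) := γ.1

theorem Sl.slab {h : V d →+ ℤ} (γ : Sl h) : IsSlab h γ.l := γ.2

theorem Sl.ext' {h : V d →+ ℤ} {γ γ' : Sl h} (e : γ.l = γ'.l) : γ = γ' := Subtype.ext e

noncomputable def law (P : Measure (ℕ → St d)) (h : V d →+ ℤ) : Measure (Sl h) :=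
  Measure.sum fun γ => P (cylL γ.l) • Measure.dirac γ

/-- sites of a slab seen from its start -/
def trF {h : V d →+ ℤ} (γ : Sl h) : Finset (V d) :=
  (Finset.range γ.l.length).image fun m => pos (ext γ.l) m

/-- sites of a slab seen from its end -/
def trB {h : V d →+ ℤ} (γ : Sl h) : Finset (V d) :=
  (Finset.range γ.l.length).image fun m => pos (ext γ.l) m - disp γ.l

def dsF {h : V d →+ ℤ} (γ : Sl h) : V d := disp γ.l

def dsB {h : V d →+ ℤ} (γ : Sl h) : V d := - disp γ.l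

/-- the path runs through the slabs `bs` in order, then its future lies in `B` -/
def Hist {h : V d →+ ℤ} : List (Sl h) → Set (ℕ → St d) → Set (ℕ → St d)
  | [], B => B
  | γ :: bs, B => cylL γ.l ∩ sh γ.l.length ⁻¹' Hist bs B

/-- total time of a list of slabs -/
def tl {h : V d →+ ℤ} (bs : List (Sl h)) : ℕ := (bs.map fun γ => γ.l.length).sum

/-- total displacement of a list of slabs -/
def dl {h : V d →+ ℤ} (bs : List (Sl h)) : V d := (bs.map fun γ => disp γ.l).sum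

/-- sites of the history seen from its end -/
def RgB {h : V d →+ ℤ} : List (Sl h) → Set (V d)
  | [] => ∅
  | γ :: bs => {x | ∃ v ∈ trB γ, x = v - dl bs} ∪ RgB bs

/-- sites of the history seen from its start -/
def RgF {h : V d →+ ℤ} : List (Sl h) → Set (V d)
  | [] => ∅
  | γ :: bs => (trF γ : Set (V d)) ∪ {x | x - disp γ.l ∈ RgF bs}

/-- forbidden sites for the downward path started at `y` (relative to the tip) -/
def Ay {h : V d →+ ℤ} (F : Finset (V d)) (y : V d) (bs : List (Sl h)) : Set (V d) :=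
  {x | y + x ∈ F ∨ y + x ∈ RgB bs}

/-- history `bs`, then the connector `η`, then a downward path avoiding everything -/
def W {h : V d →+ ℤ} (F : Finset (V d)) (y : V d) (η : List (St d)) (bs : List (Sl h)) :
    Set (ℕ → St d) :=
  Hist bs (cylL η ∩ sh η.length ⁻¹' (DL (-h) ∩ {t | ∀ j, pos t j ∉ Ay F y bs}))

/-- `η` joins the tip to `y` above the tip, its low sites lie in `F` -/
def IsConn (h : V d →+ ℤ) (F : Finset (V d)) (y : V d) (η : List (St d)) : Prop :=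
  disp η = y ∧ ∀ m < η.length, 0 ≤ h (pos (ext η) m) ∧
    (h y < h (pos (ext η) m) ∨ pos (ext η) m ∈ F)

end walk

section thick
variable {d : ℕ} {A A' : Type} [MeasurableSpace A] [MeasurableSpace A']

/-- product weight of a list -/
noncomputable def wp (μ : Measure A) (bs : List A) : ℝ≥0∞ := (bs.map fun a => μ {a}).prod

noncomputable def iid (μ : Measure A) : Measure (ℕ → A) := Measure.infinitePi fun _ : ℕ => μ

/-- thick walks: iid increments `ds` carrying finite traces `tr` -/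
structure TW (h : V d →+ ℤ) (μ : Measure A) (ds : A → V d) (tr : A → Finset (V d)) : Prop where
  prob : IsProbabilityMeasure μ
  one_le : ∀ a, 1 ≤ h (ds a)
  lev : ∀ a, ∀ v ∈ tr a, 0 ≤ h v ∧ h v ≤ h (ds a)
  card : ∫⁻ a, ((tr a).card : ℝ≥0∞) ∂μ ≠ ⊤
  height : ∫⁻ a, ((h (ds a)).toNat : ℝ≥0∞) ∂μ ≠ ⊤

def S {A : Type} (ds : A → V d) (a : ℕ → A) (n : ℕ) : V d := ∑ k ∈ Finset.range n, ds (a k)

abbrev Om (A A' : Type) := (ℕ → A) × (ℕ → A')

noncomputable def PP (μ : Measure A) (μ' : Measure A') : Measure (Om A A') :=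
  (iid μ).prod (iid μ')

def sh2 {A A' : Type} (i j : ℕ) (ω : Om A A') : Om A A' := (sh i ω.1, sh j ω.2)

/-- determined by the first `i` and `j` entries -/
def Det {A A' : Type} (i j : ℕ) (E : Set (Om A A')) : Prop :=
  ∀ ω ω' : Om A A', (∀ k < i, ω.1 k = ω'.1 k) → (∀ k < j, ω.2 k = ω'.2 k) → ω ∈ E → ω' ∈ E

def Hit {A A' : Type} (ds : A → V d) (ds' : A' → V d) (i j : ℕ) (z : V d) : Set (Om A A') :=
  {ω | S ds' ω.2 j - S ds ω.1 i = z}

def THit {A A' : Type} (ds : A → V d) (tr : A → Finset (V d)) (ds' : A' → V d)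
    (tr' : A' → Finset (V d)) (i j : ℕ) (z : V d) : Set (Om A A') :=
  {ω | ∃ v ∈ tr (ω.1 i), ∃ v' ∈ tr' (ω.2 j), z + S ds' ω.2 j + v' = S ds ω.1 i + v}

def FHit {A A' : Type} (ds' : A' → V d) (tr' : A' → Finset (V d)) (F : Finset (V d)) (j : ℕ)
    (z : V d) : Set (Om A A') :=
  {ω | ∃ v' ∈ tr' (ω.2 j), z + S ds' ω.2 j + v' ∈ F}

def Avoid {A A' : Type} (ds : A → V d) (tr : A → Finset (V d)) (ds' : A' → V d)
    (tr' : A' → Finset (V d)) (F : Finset (V d)) (n : ℕ) (y : V d) : Set (Om A A') :=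
  {ω | ∀ j, ω ∉ FHit ds' tr' F j y ∧ ∀ i < n, ω ∉ THit ds tr ds' tr' i j y}

/-- Green function of the difference walk -/
noncomputable def gr (μ : Measure A) (μ' : Measure A') (ds : A → V d) (ds' : A' → V d)
    (z : V d) : ℝ≥0∞ := ∑' i, ∑' j, PP μ μ' (Hit ds ds' i j z)

noncomputable def tau (μ : Measure A) (tr : A → Finset (V d)) (v : V d) : ℝ≥0∞ :=
  μ {a | v ∈ tr a}

/-- two independent lateral directions in the support of the increments -/
def ND (h : V d →+ ℤ) (μ : Measure A) (ds : A → V d) : Prop :=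
  ∃ (b1 b2 : V d) (a0 a1 a2 : A), h b1 = 0 ∧ h b2 = 0 ∧
    (∀ k l : ℤ, k • b1 + l • b2 = 0 → k = 0 ∧ l = 0) ∧
    μ {a0} ≠ 0 ∧ μ {a1} ≠ 0 ∧ μ {a2} ≠ 0 ∧ ds a1 = ds a0 + b1 ∧ ds a2 = ds a0 + b2

/-- anti-concentration of the expected number of meetings -/
def Cnt (μ : Measure A) (μ' : Measure A') (ds : A → V d) (ds' : A' → V d) (C : ℝ≥0∞) : Prop :=
  ∀ (N n : ℕ) (z : V d),
    (n : ℝ≥0∞) * ∑ i ∈ Finset.range N, ∑' j, PP μ μ' (Hit ds ds' i (n + j) z) ≤ C * N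

/-- convolution operator -/
noncomputable def Q (ν f : V d → ℝ≥0∞) : V d → ℝ≥0∞ := fun x => ∑' v, ν v * f (x - v)

/-- two point average -/
noncomputable def Av (a b : V d) (f : V d → ℝ≥0∞) : V d → ℝ≥0∞ :=
  fun x => (f (x - a) + f (x - (a + b))) / 2

/-- the first `n` entries -/
def ini {A : Type} (n : ℕ) (a : ℕ → A) : List A := (List.range n).map a

/-- good height after `n * 2 ^ l` steps -/
def Gd {A : Type} (h : V d →+ ℤ) (ds : A → V d) (lo hi : ℝ) (n l : ℕ) : Set (ℕ → A) :=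
  {x | lo * 2 ^ l ≤ (h (S ds x (n * 2 ^ l)) : ℝ) ∧ (h (S ds x (n * 2 ^ l)) : ℝ) ≤ hi * 2 ^ l}

def Good {A : Type} (h : V d →+ ℤ) (ds : A → V d) (lo hi : ℝ) (n k : ℕ) : Set (ℕ → A) :=
  {x | x ∈ Gd h ds lo hi n 0 ∧ ∀ l < k, sh (n * 2 ^ l) x ∈ Gd h ds lo hi n l}

def Bk {A A' : Type} (h : V d →+ ℤ) (ds : A → V d) (tr : A → Finset (V d)) (ds' : A' → V d)
    (tr' : A' → Finset (V d)) (F : Finset (V d)) (y : V d) (lo hi : ℝ) (a b k : ℕ) :
    Set (Om A A') :=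
  {ω | ω.1 ∈ Good h ds lo hi a k ∧ ω.2 ∈ Good h ds' lo hi b k ∧
    ∀ j < b * 2 ^ k, ω ∉ FHit ds' tr' F j y ∧ ∀ i < a * 2 ^ k, ω ∉ THit ds tr ds' tr' i j y}

def Bad {A A' : Type} (h : V d →+ ℤ) (ds : A → V d) (ds' : A' → V d) (lo hi : ℝ) (a b l : ℕ) :
    Set (Om A A') :=
  {ω | ω.1 ∉ Gd h ds lo hi a l ∨ ω.2 ∉ Gd h ds' lo hi b l}

/-- thick meeting with `i < N` and `n ≤ j` -/
def Box {A A' : Type} (ds : A → V d) (tr : A → Finset (V d)) (ds' : A' → V d)
    (tr' : A' → Finset (V d)) (N n : ℕ) (z : V d) : Set (Om A A') :=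
  {ω | ∃ i < N, ∃ j, ω ∈ THit ds tr ds' tr' i (n + j) z}

end thick

end Vale.Agent.P147B
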