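import Mathlib
import Vale.Agent.P147B.Defs

namespace Vale.Agent.P147B
open MeasureTheory
open scoped ENNReal

section walk
variable {d : ℕ}

@[simp] theorem pos_zero (s : ℕ → St d) : pos s 0 = 0 := by simp [pos]

theorem pos_succ (s : ℕ → St d) (n : ℕ) : pos s (n + 1) = pos s n + vec (s n) := by
  simp [pos, Finset.sum_range_succ]

theorem pos_add (s : ℕ → St d) (n m : ℕ) : pos s (n + m) = pos s n + pos (sh n s) m := by
  simp [pos, sh, Finset.sum_range_add]

theorem pos_congr {s t : ℕ → St d} {n : ℕ} (h : ∀ i < n, s i = t i) : pos s n = pos t n :=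
  Finset.sum_congr rfl fun i hi => by rw [h i (Finset.mem_range.1 hi)]

theorem pos_of_mem_cyl {s t : ℕ → St d} {n m : ℕ} (ht : t ∈ cyl s n) (hm : m ≤ n) :
    pos t m = pos s m := pos_congr fun i hi => ht i (lt_of_lt_of_le hi hm)

theorem sh_sh {α : Type} (n m : ℕ) (s : ℕ → α) : sh m (sh n s) = sh (n + m) s := by
  funext i; simp [sh, Nat.add_assoc]

@[simp] theorem sh_zero {α : Type} (s : ℕ → α) : sh 0 s = s := by funext i; simp [sh]

theorem measurable_sh {α : Type} [MeasurableSpace α] (n : ℕ) :
    Measurable (sh n : (ℕ → α) → ℕ → α) :=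
  measurable_pi_lambda _ fun i => measurable_pi_apply (n + i)

theorem measurable_pos (n : ℕ) : Measurable fun s : ℕ → St d => pos s n :=
  Finset.measurable_sum _ fun i _ => (Measurable.of_discrete (f := vec)).comp (measurable_pi_apply i)

theorem measurableSet_cyl (s : ℕ → St d) (n : ℕ) : MeasurableSet (cyl s n) := by
  have : cyl s n = ⋂ i, ⋂ _ : i < n, (fun t : ℕ → St d => t i) ⁻¹' {s i} := by
    ext t; simp [cyl]
  rw [this]
  exact MeasurableSet.iInter fun i => MeasurableSet.iInter fun _ =>
    measurable_pi_apply i (measurableSet_singleton _)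

/-- any condition on the position at a fixed time is measurable -/
theorem measurableSet_pos (n : ℕ) (p : V d → Prop) :
    MeasurableSet {s : ℕ → St d | p (pos s n)} :=
  measurable_pos n (MeasurableSet.of_discrete (s := {x | p x}))

theorem measurableSet_pos2 (n m : ℕ) (p : V d → V d → Prop) :
    MeasurableSet {s : ℕ → St d | p (pos s n) (pos s m)} :=
  ((measurable_pos n).prodMk (measurable_pos m))
    (MeasurableSet.of_discrete (s := {x : V d × V d | p x.1 x.2}))

theorem measurableSet_D (h : V d →+ ℤ) : MeasurableSet (D h) := by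
  have : D h = ⋂ m, {s : ℕ → St d | 0 ≤ h (pos s m)} := by ext s; simp [D]
  rw [this]
  exact MeasurableSet.iInter fun m => measurableSet_pos m fun x => 0 ≤ h x

theorem measurableSet_Lin (h : V d →+ ℤ) : MeasurableSet (Lin h) := by
  have : Lin h = ⋃ C : ℕ, ⋂ m : ℕ, {s : ℕ → St d | (m : ℤ) ≤ h (pos s m) + C} := by
    ext s; simp [Lin]
  rw [this]
  exact MeasurableSet.iUnion fun C => MeasurableSet.iInter fun m =>
    measurableSet_pos m fun x => (m : ℤ) ≤ h x + C

theorem measurableSet_DL (h : V d →+ ℤ) : MeasurableSet (DL h) :=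
  (measurableSet_D h).inter (measurableSet_Lin h)

theorem measurableSet_Rec (h : V d →+ ℤ) (n : ℕ) : MeasurableSet {s : ℕ → St d | Rec h s n} := by
  have : {s : ℕ → St d | Rec h s n} =
      ⋂ m, ⋂ _ : m < n, {s : ℕ → St d | h (pos s m) < h (pos s n)} := by
    ext s; simp [Rec]
  rw [this]
  exact MeasurableSet.iInter fun m => MeasurableSet.iInter fun _ =>
    measurableSet_pos2 m n fun x y => h x < h y

theorem measurableSet_NoCut (h : V d →+ ℤ) (j : ℕ) : MeasurableSet (NoCut h j) := by
  have : NoCut h j = DL h ∩ ⋂ n, ⋂ _ : 0 < n, ({s : ℕ → St d | Rec h s n}ᶜ ∪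
      ((sh n ⁻¹' D h)ᶜ ∪ {s : ℕ → St d | (j : ℤ) < h (pos s n)})) := by
    ext s
    simp only [NoCut, Set.mem_ofPred_eq, Set.mem_inter_iff, Set.mem_iInter, Set.mem_union,
      Set.mem_compl_iff, Set.mem_preimage]
    refine and_congr_right fun _ => forall_congr' fun n => forall_congr' fun _ => ?_
    tauto
  rw [this]
  exact (measurableSet_DL h).inter (MeasurableSet.iInter fun n => MeasurableSet.iInter fun _ =>
    (measurableSet_Rec h n).compl.union
      ((measurable_sh n (measurableSet_D h)).compl.union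
        (measurableSet_pos n fun x => (j : ℤ) < h x)))

theorem measurableSet_avoid (A : Set (V d)) :
    MeasurableSet {s : ℕ → St d | ∀ j, pos s j ∉ A} := by
  have : {s : ℕ → St d | ∀ j, pos s j ∉ A} = ⋂ j, {s : ℕ → St d | pos s j ∉ A} := by
    ext s; simp
  rw [this]
  exact MeasurableSet.iInter fun m => measurableSet_pos m fun x => x ∉ A

/-- bound on the level change of one step -/
def stepB (h : V d →+ ℤ) : ℕ := ∑ e : St d, (h (vec e)).natAbs

theorem abs_step_le (h : V d →+ ℤ) (e : St d) : |h (vec e)| ≤ stepB h := by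
  have : (h (vec e)).natAbs ≤ stepB h :=
    Finset.single_le_sum (f := fun e : St d => (h (vec e)).natAbs) (fun _ _ => Nat.zero_le _)
      (Finset.mem_univ e)
  rw [Int.abs_eq_natAbs]; exact_mod_cast this

theorem abs_pos_le (h : V d →+ ℤ) (s : ℕ → St d) (n : ℕ) : |h (pos s n)| ≤ stepB h * n := by
  induction n with
  | zero => simp
  | succ n ih =>
    rw [pos_succ, map_add]
    have := abs_step_le h (s n)
    have h2 := abs_add_le (h (pos s n)) (h (vec (s n)))
    push_cast; linarith

variable [NeZero d]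

theorem measurableSet_cylL (γ : List (St d)) : MeasurableSet (cylL γ) := measurableSet_cyl _ _

theorem pos_of_mem_cylL {γ : List (St d)} {t : ℕ → St d} (ht : t ∈ cylL γ) {m : ℕ}
    (hm : m ≤ γ.length) : pos t m = pos (ext γ) m := pos_of_mem_cyl ht hm

theorem measurableSet_Hist {h : V d →+ ℤ} (bs : List (Sl h)) {B : Set (ℕ → St d)}
    (hB : MeasurableSet B) : MeasurableSet (Hist bs B) := by
  induction bs with
  | nil => exact hB
  | cons γ bs ih => exact (measurableSet_cylL _).inter (measurable_sh _ ih)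

theorem law_single (P : Measure (ℕ → St d)) (h : V d →+ ℤ) (γ : Sl h) :
    law P h {γ} = P (cylL γ.l) := by
  rw [law, Measure.sum_apply _ (MeasurableSet.of_discrete)]
  rw [tsum_eq_single γ]
  · simp
  · intro b hb
    simp [Measure.dirac_apply' _ (MeasurableSet.of_discrete (s := {γ})), hb]

@[simp] theorem tl_nil {h : V d →+ ℤ} : tl ([] : List (Sl h)) = 0 := rfl
@[simp] theorem tl_cons {h : V d →+ ℤ} (γ : Sl h) (bs : List (Sl h)) :
    tl (γ :: bs) = γ.l.length + tl bs := by simp [tl]
@[simp] theorem dl_nil {h : V d →+ ℤ} : dl ([] : List (Sl h)) = 0 := rfl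
@[simp] theorem dl_cons {h : V d →+ ℤ} (γ : Sl h) (bs : List (Sl h)) :
    dl (γ :: bs) = disp γ.l + dl bs := by simp [dl]

theorem Sl.one_le {h : V d →+ ℤ} (γ : Sl h) : 1 ≤ h (disp γ.l) := by
  have := (γ.slab.2.1 0 γ.slab.1).2
  simp only [pos_zero, map_zero] at this
  omega

end walk

section thick
variable {d : ℕ} {A A' : Type}

@[simp] theorem S_zero (ds : A → V d) (a : ℕ → A) : S ds a 0 = 0 := by simp [S]

theorem S_succ (ds : A → V d) (a : ℕ → A) (n : ℕ) : S ds a (n + 1) = S ds a n + ds (a n) := by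
  simp [S, Finset.sum_range_succ]

theorem S_add (ds : A → V d) (a : ℕ → A) (n m : ℕ) :
    S ds a (n + m) = S ds a n + S ds (sh n a) m := by
  simp [S, sh, Finset.sum_range_add]

theorem S_congr (ds : A → V d) {a b : ℕ → A} {n : ℕ} (h : ∀ i < n, a i = b i) :
    S ds a n = S ds b n :=
  Finset.sum_congr rfl fun i hi => by rw [h i (Finset.mem_range.1 hi)]

theorem lev_add_le {h : V d →+ ℤ} {ds : A → V d} (h1 : ∀ a, 1 ≤ h (ds a)) (a : ℕ → A) (n m : ℕ) :
    h (S ds a n) + m ≤ h (S ds a (n + m)) := by
  induction m with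
  | zero => simp
  | succ m ih =>
    rw [← Nat.add_assoc, S_succ, map_add]
    have := h1 (a (n + m))
    push_cast; linarith

theorem lev_strictMono {h : V d →+ ℤ} {ds : A → V d} (h1 : ∀ a, 1 ≤ h (ds a)) (a : ℕ → A) :
    StrictMono fun n => h (S ds a n) :=
  strictMono_nat_of_lt_succ fun n => by
    have := lev_add_le h1 a n 1
    simp only [Nat.cast_one] at this
    omega

theorem le_lev {h : V d →+ ℤ} {ds : A → V d} (h1 : ∀ a, 1 ≤ h (ds a)) (a : ℕ → A) (n : ℕ) :
    (n : ℤ) ≤ h (S ds a n) := by
  simpa using lev_add_le h1 a 0 n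

variable [MeasurableSpace A] [MeasurableSpace A']

instance iid_prob (μ : Measure A) [IsProbabilityMeasure μ] : IsProbabilityMeasure (iid μ) := by
  unfold iid; infer_instance

instance PP_prob (μ : Measure A) (μ' : Measure A') [IsProbabilityMeasure μ]
    [IsProbabilityMeasure μ'] : IsProbabilityMeasure (PP μ μ') := by
  unfold PP; infer_instance

theorem measurable_sh2 (i j : ℕ) : Measurable (sh2 i j : Om A A' → Om A A') :=
  ((measurable_sh i).comp measurable_fst).prodMk ((measurable_sh j).comp measurable_snd)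

variable [Countable A] [DiscreteMeasurableSpace A] [Countable A'] [DiscreteMeasurableSpace A']

theorem measurable_S (ds : A → V d) (n : ℕ) : Measurable fun a : ℕ → A => S ds a n :=
  Finset.measurable_sum _ fun i _ => (Measurable.of_discrete (f := ds)).comp (measurable_pi_apply i)

/-- a set determined by finitely many entries is measurable -/
theorem Det.measurableSet {i j : ℕ} {E : Set (Om A A')} (hE : Det i j E) : MeasurableSet E := by
  let r : Om A A' → (Fin i → A) × (Fin j → A') :=
    fun ω => (fun k => ω.1 k, fun k => ω.2 k)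
  have hr : Measurable r := by
    refine Measurable.prodMk ?_ ?_
    · exact measurable_pi_lambda _ fun k : Fin i =>
        (measurable_pi_apply (k : ℕ)).comp (measurable_fst (α := ℕ → A) (β := ℕ → A'))
    · exact measurable_pi_lambda _ fun k : Fin j =>
        (measurable_pi_apply (k : ℕ)).comp (measurable_snd (α := ℕ → A) (β := ℕ → A'))
  have : E = r ⁻¹' (r '' E) := by
    ext ω
    constructor
    · intro h; exact ⟨ω, h, rfl⟩
    · rintro ⟨ω', h', e⟩
      refine hE ω' ω (fun k hk => ?_) (fun k hk => ?_) h'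
      · exact congrFun (congrArg Prod.fst e) ⟨k, hk⟩
      · exact congrFun (congrArg Prod.snd e) ⟨k, hk⟩
  rw [this]
  exact hr MeasurableSet.of_discrete

omit [MeasurableSpace A] [MeasurableSpace A'] [Countable A] [DiscreteMeasurableSpace A]
  [Countable A'] [DiscreteMeasurableSpace A'] in
theorem Det.mono {i j i' j' : ℕ} {E : Set (Om A A')} (hE : Det i j E) (hi : i ≤ i')
    (hj : j ≤ j') : Det i' j' E := fun ω ω' h1 h2 =>
  hE ω ω' (fun k hk => h1 k (lt_of_lt_of_le hk hi)) (fun k hk => h2 k (lt_of_lt_of_le hk hj))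

omit [MeasurableSpace A] [MeasurableSpace A'] [Countable A] [DiscreteMeasurableSpace A]
  [Countable A'] [DiscreteMeasurableSpace A'] in
theorem det_Hit (ds : A → V d) (ds' : A' → V d) (i j : ℕ) (z : V d) :
    Det i j (Hit ds ds' i j z) := fun ω ω' h1 h2 h => by
  simp only [Hit, Set.mem_ofPred_eq] at h ⊢
  rw [← S_congr ds h1, ← S_congr ds' h2, h]

omit [MeasurableSpace A] [MeasurableSpace A'] [Countable A] [DiscreteMeasurableSpace A]
  [Countable A'] [DiscreteMeasurableSpace A'] in
theorem det_THit (ds : A → V d) (tr : A → Finset (V d)) (ds' : A' → V d)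
    (tr' : A' → Finset (V d)) (i j : ℕ) (z : V d) :
    Det (i + 1) (j + 1) (THit ds tr ds' tr' i j z) := fun ω ω' h1 h2 h => by
  simp only [THit, Set.mem_ofPred_eq] at h ⊢
  rw [← S_congr ds (fun k hk => h1 k (Nat.lt_succ_of_lt hk)),
    ← S_congr ds' (fun k hk => h2 k (Nat.lt_succ_of_lt hk)), ← h1 i (Nat.lt_succ_self i),
    ← h2 j (Nat.lt_succ_self j)]
  exact h

omit [MeasurableSpace A] [MeasurableSpace A'] [Countable A] [DiscreteMeasurableSpace A]
  [Countable A'] [DiscreteMeasurableSpace A'] in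
theorem det_FHit (ds' : A' → V d) (tr' : A' → Finset (V d)) (F : Finset (V d)) (j : ℕ)
    (z : V d) : Det 0 (j + 1) (FHit (A := A) ds' tr' F j z) := fun ω ω' _ h2 h => by
  simp only [FHit, Set.mem_ofPred_eq] at h ⊢
  rw [← S_congr ds' (fun k hk => h2 k (Nat.lt_succ_of_lt hk)), ← h2 j (Nat.lt_succ_self j)]
  exact h

theorem measurableSet_Hit (ds : A → V d) (ds' : A' → V d) (i j : ℕ) (z : V d) :
    MeasurableSet (Hit ds ds' i j z) := (det_Hit ds ds' i j z).measurableSet

theorem measurableSet_THit (ds : A → V d) (tr : A → Finset (V d)) (ds' : A' → V d)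
    (tr' : A' → Finset (V d)) (i j : ℕ) (z : V d) :
    MeasurableSet (THit ds tr ds' tr' i j z) := (det_THit ds tr ds' tr' i j z).measurableSet

theorem measurableSet_FHit (ds' : A' → V d) (tr' : A' → Finset (V d)) (F : Finset (V d)) (j : ℕ)
    (z : V d) : MeasurableSet (FHit (A := A) ds' tr' F j z) :=
  (det_FHit ds' tr' F j z).measurableSet

theorem measurableSet_Avoid (ds : A → V d) (tr : A → Finset (V d)) (ds' : A' → V d)
    (tr' : A' → Finset (V d)) (F : Finset (V d)) (n : ℕ) (y : V d) :
    MeasurableSet (Avoid ds tr ds' tr' F n y) := by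
  have : Avoid ds tr ds' tr' F n y = ⋂ j, ((FHit ds' tr' F j y)ᶜ ∩
      ⋂ i, ⋂ _ : i < n, (THit ds tr ds' tr' i j y)ᶜ) := by
    ext ω; simp [Avoid]
  rw [this]
  exact MeasurableSet.iInter fun j => (measurableSet_FHit ds' tr' F j y).compl.inter
    (MeasurableSet.iInter fun i => MeasurableSet.iInter fun _ =>
      (measurableSet_THit ds tr ds' tr' i j y).compl)

end thick

end Vale.Agent.P147B
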